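import Vale.Agent.P088.R2.H31.CSpec3

/-!
# P088, THEOREM S, core: block KID (the kernel is the sum of the products of the multipoles)
-/

open MeasureTheory Set Filter Topology Metric
open scoped ContDiff

noncomputable section

namespace Vale.Agent.P088.R2.H884

open Vale.Agent.P088.R2.H31

variable {k : ℕ}

/-- `a · y` in coordinates -/
def ay (y : E (k + 3)) : ℝ := 5 / 13 * y 0 - 12 / 13 * y 1

theorem inner_av (y : E (k + 3)) : inner ℝ (av k) y = ay y := by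
  unfold av ay
  rw [inner_sub_left, inner_smul_left, inner_smul_left, EuclideanSpace.inner_single_left,
    EuclideanSpace.inner_single_left]
  simp

theorem zz_sq (y : E (k + 3)) : zz y ^ 2 = (12 / 13 * y 0 + 5 / 13 * y 1) ^ 2 + y 2 ^ 2 := by
  unfold zz
  rw [Real.sq_sqrt (by positivity)]

theorem norm_pL_sq (y : E (k + 3)) : ‖pL y‖ ^ 2 = y 0 ^ 2 + y 1 ^ 2 + y 2 ^ 2 := by
  rw [EuclideanSpace.norm_sq_eq, Fin.sum_univ_three]
  simp only [pL, Real.norm_eq_abs, sq_abs]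
  rfl

/-- `|pL y|² = (a·y)² + zz(y)²` -/
theorem norm_pL_sq' (y : E (k + 3)) : ‖pL y‖ ^ 2 = ay y ^ 2 + zz y ^ 2 := by
  rw [norm_pL_sq, zz_sq]
  unfold ay
  ring

/-- `|y|² = |pL y|² + |pP y|²` -/
theorem norm_sq_split (y : E (k + 3)) : ‖y‖ ^ 2 = ‖pL y‖ ^ 2 + ‖pP y‖ ^ 2 := by
  rw [norm_pL_sq, EuclideanSpace.norm_sq_eq, EuclideanSpace.norm_sq_eq]
  rw [Fin.sum_univ_succ, Fin.sum_univ_succ, Fin.sum_univ_succ]
  simp only [pP, Real.norm_eq_abs, sq_abs]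
  have h0 : ∀ i : Fin k, (i.succ.succ.succ : Fin (k + 3)) = ⟨i.1 + 3, by omega⟩ := fun i => rfl
  have h1 : ((0 : Fin (k + 2)).succ : Fin (k + 3)) = 1 := rfl
  have h2 : ((0 : Fin (k + 1)).succ.succ : Fin (k + 3)) = 2 := rfl
  rw [h1, h2]
  simp only [h0]
  ring

/-- `|y|² = (a·y)² + zz(y)² + |pP y|²` -/
theorem norm_sq_split' (y : E (k + 3)) : ‖y‖ ^ 2 = ay y ^ 2 + zz y ^ 2 + ‖pP y‖ ^ 2 := by
  rw [norm_sq_split, norm_pL_sq']

theorem av0 : (av k) 0 = 5 / 13 := by simp [av]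
theorem av1 : (av k) 1 = -(12 / 13) := by simp [av]
theorem av2 : (av k) 2 = 0 := by simp [av, ne02.symm, ne12.symm]

theorem norm_av_sq : ‖av k‖ ^ 2 = 1 := by
  have h := inner_av (k := k) (av k)
  rw [real_inner_self_eq_norm_sq] at h
  rw [h]
  unfold ay
  rw [av0, av1]
  norm_num

theorem norm_av : ‖av k‖ = 1 := by
  have h := norm_av_sq (k := k)
  have h0 := norm_nonneg (av k)
  nlinarith

theorem zl_av : zl k (av k) = 0 := by
  rw [zl_apply, av0, av1, av2]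
  norm_num

theorem zl_add_av (y : E (k + 3)) (t : ℝ) : zl k (y + t • av k) = zl k y := by
  rw [map_add, map_smul, zl_av, smul_zero, add_zero]

theorem zl_sub_av (y : E (k + 3)) (t : ℝ) : zl k (y - t • av k) = zl k y := by
  rw [map_sub, map_smul, zl_av, smul_zero, sub_zero]

theorem zz_add_av (y : E (k + 3)) (t : ℝ) : zz (y + t • av k) = zz y := by
  rw [← norm_zl, ← norm_zl, zl_add_av]

theorem zz_sub_av (y : E (k + 3)) (t : ℝ) : zz (y - t • av k) = zz y := by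
  rw [← norm_zl, ← norm_zl, zl_sub_av]

theorem norm_add_av (y : E (k + 3)) (t : ℝ) :
    ‖y + t • av k‖ ^ 2 = ‖y‖ ^ 2 + 2 * t * ay y + t ^ 2 := by
  rw [norm_add_sq_real, inner_smul_right, real_inner_comm, inner_av, norm_smul, mul_pow,
    norm_av_sq, Real.norm_eq_abs, sq_abs]
  ring

theorem norm_sub_av (y : E (k + 3)) (t : ℝ) :
    ‖y - t • av k‖ ^ 2 = ‖y‖ ^ 2 - 2 * t * ay y + t ^ 2 := by
  rw [norm_sub_sq_real, inner_smul_right, real_inner_comm, inner_av, norm_smul, mul_pow,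
    norm_av_sq, Real.norm_eq_abs, sq_abs]
  ring

/-- `D = |y + ρa|² |y - ρa|²` -/
theorem DD_eq (y : E (k + 3)) (ρ : ℝ) :
    DD k ‖pL y‖ (zz y) ρ (pP y) = (‖y + ρ • av k‖ * ‖y - ρ • av k‖) ^ 2 := by
  rw [mul_pow, norm_add_av, norm_sub_av, norm_sq_split, norm_pL_sq']
  unfold DD
  rw [norm_pL_sq']
  ring

theorem sub_p (c x : E (k + 3)) (ρ : ℝ) : x - (c - ρ • av k) = (x - c) + ρ • av k := by abel
theorem sub_q (c x : E (k + 3)) (ρ : ℝ) : x - (c + ρ • av k) = (x - c) - ρ • av k := by abel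

/-- `D = (|x - p| |x - q|)²` -/
theorem DD_eq' (c x : E (k + 3)) (ρ : ℝ) :
    DD k ‖pL (x - c)‖ (zz (x - c)) ρ (pP (x - c)) =
      (‖x - (c - ρ • av k)‖ * ‖x - (c + ρ • av k)‖) ^ 2 := by
  rw [sub_p, sub_q, DD_eq]

theorem Um_mul (c x : E (k + 3)) (ρ : ℝ) (m : ℕ) (hp : x ≠ c - ρ • av k) (hq : x ≠ c + ρ • av k) :
    Um Complex.reCLM (c - ρ • av k) m x * Um Complex.reCLM (c + ρ • av k) m x +
        Um Complex.imCLM (c - ρ • av k) m x * Um Complex.imCLM (c + ρ • av k) m x =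
      zz (x - c) ^ (2 * m) / ((‖x - (c - ρ • av k)‖ * ‖x - (c + ρ • av k)‖) ^ (2 * m) *
        (‖x - (c - ρ • av k)‖ * ‖x - (c + ρ • av k)‖) ^ (k + 1)) := by
  have hA : 0 < ‖x - (c - ρ • av k)‖ := norm_pos_iff.2 (sub_ne_zero.2 hp)
  have hB : 0 < ‖x - (c + ρ • av k)‖ := norm_pos_iff.2 (sub_ne_zero.2 hq)
  have h1 : zl k (x - (c - ρ • av k)) = zl k (x - c) := by rw [sub_p, zl_add_av]
  have h2 : zl k (x - (c + ρ • av k)) = zl k (x - c) := by rw [sub_q, zl_sub_av]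
  have h3 : (zl k (x - c) ^ m).re * (zl k (x - c) ^ m).re +
      (zl k (x - c) ^ m).im * (zl k (x - c) ^ m).im = zz (x - c) ^ (2 * m) := by
    rw [← Complex.normSq_apply, Complex.normSq_eq_norm_sq, norm_pow, norm_zl]
    ring
  unfold Um Hm
  rw [nsq_pow_sm hp, nsq_pow_sm hq, h1, h2]
  simp only [Complex.reCLM_apply, Complex.imCLM_apply]
  rw [← h3]
  unfold nsq
  field_simp
  ring

/-- (KID) -/
theorem kid : KID_statement := by
  intro k m c x ρ hρ hp hq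
  have hA : 0 < ‖x - (c - ρ • av k)‖ := norm_pos_iff.2 (sub_ne_zero.2 hp)
  have hB : 0 < ‖x - (c + ρ • av k)‖ := norm_pos_iff.2 (sub_ne_zero.2 hq)
  have hK : Ker k m c ρ x = (4 * ρ ^ 2 * zz (x - c) ^ 2) ^ m /
      ((‖x - (c - ρ • av k)‖ * ‖x - (c + ρ • av k)‖) ^ (2 * m) *
        (‖x - (c - ρ • av k)‖ * ‖x - (c + ρ • av k)‖) ^ (k + 1)) := by
    unfold Ker KK
    rw [DD_eq', Real.sqrt_sq (by positivity), div_pow, div_div, ← pow_mul]
  refine ⟨DD_eq' c x ρ, ?_, ?_⟩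
  · rw [hK, Um_mul c x ρ m hp hq, mul_pow (4 * ρ ^ 2), ← pow_mul (zz (x - c)), mul_div_assoc]
  · rw [hK]
    unfold Gam
    rw [sub_p c x ρ, zz_add_av, div_pow, div_div]
    congr 1
    rw [mul_comm 2 m, pow_mul' _ m 2]
    ring

end Vale.Agent.P088.R2.H884
end
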